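import Vale.Agent.P075.Final

open Vale.Agent.P075

theorem Vale.Agent.Results.P075.DyadicTHT.result :
    ∃ C : ℝ, ∀ F0 F1 F2 : ℝ × ℝ → ℝ, Admissible F0 → Admissible F1 → Admissible F2 →
      (∀ k : ℤ, (Function.support fun n : XorTriple =>
        Lform k n.1.1 n.1.2.1 n.1.2.2 F0 F1 F2).Finite) ∧
      ∀ (S : Finset ℤ) (ε : ℤ → ℝ), (∀ k, |ε k| ≤ 1) →
        |Lam S ε F0 F1 F2| ≤ C * (norm3 F0 * norm3 F1 * norm3 F2) :=
  ⟨24, fun _ _ _ h0 h1 h2 => main_bound h0 h1 h2⟩
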